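import Vale.Agent.P159.T1.S.H112.P3Defs
import Vale.Agent.P159.T1.H910.DKit2

/-!
P159, stage 2, row S.SQ: change of the scale of a sample, `H * k` to `n`.
-/

open Filter Topology MeasureTheory

namespace Vale.Agent.P159.T1.S.H459

open Vale.Agent.P159 Vale.Agent.P159.T1.D Vale.Agent.P159.T1.D.H469 Vale.Agent.P159.T1.H711
open Vale.Agent.P159.T1.S.H112 (FreeSqH)

/-- the difference of the values at two points, at two scales -/
theorem samp_diff {ψ : ℝ × ℝ → ℝ} (hψ : ContDiff ℝ 2 ψ) (hc : HasCompactSupport ψ) :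
    ∃ C : ℝ, 0 ≤ C ∧ ∀ (a c : ℝ × ℝ) (s s' R : ℝ), ‖a - c‖ ≤ 1 → 0 ≤ s → s ≤ s' → 0 ≤ R →
      s' * ‖a‖ ≤ R →
      |(ψ (s' • a) - ψ (s' • c)) - (ψ (s • a) - ψ (s • c))| ≤ C * (1 + R) * (s' - s) := by
  have h1 : ContDiff ℝ 1 (fderiv ℝ ψ) := hψ.fderiv_right (by norm_num)
  have h2 : HasCompactSupport (fderiv ℝ ψ) := hc.fderiv (𝕜 := ℝ)
  obtain ⟨L, hL⟩ := h1.lipschitzWith_of_hasCompactSupport h2 (by norm_num)
  obtain ⟨M, hM⟩ := h2.exists_bound_of_continuous h1.continuous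
  have hM0 : 0 ≤ M := (norm_nonneg _).trans (hM 0)
  refine ⟨max L M, le_max_of_le_right hM0, fun a c s s' R hac hs hss hR hR' => ?_⟩
  have hd : ∀ x : ℝ, HasDerivAt (fun x : ℝ => ψ (x • a) - ψ (x • c))
      (fderiv ℝ ψ (x • a) a - fderiv ℝ ψ (x • c) c) x := by
    intro x
    have hdiff : Differentiable ℝ ψ := hψ.differentiable (by norm_num)
    have e : ∀ v : ℝ × ℝ, HasDerivAt (fun x : ℝ => ψ (x • v)) (fderiv ℝ ψ (x • v) v) x := by
      intro v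
      have h3 : HasDerivAt (fun x : ℝ => x • v) v x := by
        simpa using (hasDerivAt_id x).smul_const v
      exact (hdiff (x • v)).hasFDerivAt.comp_hasDerivAt x h3
    exact (e a).sub (e c)
  have hb : ∀ x ∈ Set.Icc s s', ‖fderiv ℝ ψ (x • a) a - fderiv ℝ ψ (x • c) c‖ ≤
      max (L : ℝ) M * (1 + R) := by
    intro x hx
    have hx0 : 0 ≤ x := hs.trans hx.1
    have e1 : fderiv ℝ ψ (x • a) a - fderiv ℝ ψ (x • c) c =
        (fderiv ℝ ψ (x • a) - fderiv ℝ ψ (x • c)) a + fderiv ℝ ψ (x • c) (a - c) := by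
      rw [sub_apply, map_sub]
      ring
    have e2 : ‖fderiv ℝ ψ (x • a) - fderiv ℝ ψ (x • c)‖ ≤ L * x := by
      have h5 := hL.dist_le_mul (x • a) (x • c)
      rw [dist_eq_norm, dist_eq_norm, ← smul_sub, norm_smul, Real.norm_of_nonneg hx0] at h5
      refine h5.trans (mul_le_mul_of_nonneg_left ?_ L.coe_nonneg)
      exact mul_le_of_le_one_right hx0 hac
    have e3 : ‖(fderiv ℝ ψ (x • a) - fderiv ℝ ψ (x • c)) a‖ ≤ L * R := by
      refine (ContinuousLinearMap.le_opNorm _ _).trans ?_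
      calc ‖fderiv ℝ ψ (x • a) - fderiv ℝ ψ (x • c)‖ * ‖a‖ ≤ L * x * ‖a‖ :=
            mul_le_mul_of_nonneg_right e2 (norm_nonneg _)
        _ = L * (x * ‖a‖) := by ring
        _ ≤ L * R := mul_le_mul_of_nonneg_left
            ((mul_le_mul_of_nonneg_right hx.2 (norm_nonneg _)).trans hR') L.coe_nonneg
    have e4 : ‖fderiv ℝ ψ (x • c) (a - c)‖ ≤ M := by
      refine (ContinuousLinearMap.le_opNorm _ _).trans ?_
      calc ‖fderiv ℝ ψ (x • c)‖ * ‖a - c‖ ≤ M * 1 :=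
            mul_le_mul (hM _) hac (norm_nonneg _) hM0
        _ = M := mul_one M
    rw [e1]
    refine (norm_add_le _ _).trans ((add_le_add e3 e4).trans ?_)
    have h6 : (L : ℝ) * R ≤ max (L : ℝ) M * R := mul_le_mul_of_nonneg_right (le_max_left _ _) hR
    have h7 : M ≤ max (L : ℝ) M := le_max_right _ _
    linarith
  have h8 := norm_image_sub_le_of_norm_deriv_le_segment' (f := fun x : ℝ => ψ (x • a) - ψ (x • c))
    (f' := fun x => fderiv ℝ ψ (x • a) a - fderiv ℝ ψ (x • c) c) (C := max (L : ℝ) M * (1 + R))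
    (a := s) (b := s') (fun x hx => (hd x).hasDerivWithinAt)
    (fun x hx => hb x ⟨hx.1, hx.2.le⟩) s' ⟨hss, le_rfl⟩
  exact h8

/-- the square `[0, n)²` -/
noncomputable def bx (n : ℕ) : Finset Z2 := Finset.Ico (0 : ℤ) n ×ˢ Finset.Ico (0 : ℤ) n

lemma mem_bx {n : ℕ} {f : Z2} : f ∈ bx n ↔ (0 ≤ f.1 ∧ f.1 < n) ∧ 0 ≤ f.2 ∧ f.2 < n := by
  unfold bx
  rw [Finset.mem_product, Finset.mem_Ico, Finset.mem_Ico]

lemma card_bd_bx (n : ℕ) : ((bd (bx n)).card : ℝ) ≤ 4 * (n : ℝ) ^ 2 := by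
  have h1 : (bd (bx n)).card ≤ ∑ f ∈ bx n, (sides f).card := Finset.card_biUnion_le
  have h2 : ∑ f ∈ bx n, (sides f).card ≤ ∑ f ∈ bx n, 4 :=
    Finset.sum_le_sum fun f _ => by
      unfold sides
      exact Finset.card_le_four
  have h3 : (bx n).card = n * n := by
    unfold bx
    rw [Finset.card_product, Int.card_Ico]
    simp
  rw [Finset.sum_const, h3, smul_eq_mul] at h2
  have h4 := h1.trans h2
  have h5 : ((bd (bx n)).card : ℝ) ≤ ((n * n * 4 : ℕ) : ℝ) := by exact_mod_cast h4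
  refine h5.trans (le_of_eq ?_)
  push_cast
  ring

lemma has_bx (n : ℕ) : Has (bx n) n 0 := by
  intro f h1 h2 h3 h4
  rw [add_zero, mem_bx]
  exact ⟨⟨h1, h2⟩, h3, h4⟩

lemma has_mono {U : Finset Z2} {n n' : ℕ} {u : Z2} (h : Has U n u) (hn : n' ≤ n) :
    Has U n' u := by
  intro f h1 h2 h3 h4
  have h5 : (n' : ℤ) ≤ n := by exact_mod_cast hn
  exact h f h1 (h2.trans_le h5) h3 (h4.trans_le h5)

lemma sq_origin (ψ : ℝ × ℝ → ℝ) (n : ℕ) : sq ψ n 0 = smp ψ n 0 := by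
  funext f
  unfold sq
  rw [sub_zero]

lemma smp_smul (ψ : ℝ × ℝ → ℝ) (n : ℕ) (f : Z2) :
    smp ψ n 0 f = ψ ((1 / (n : ℝ)) • ((f.1 : ℝ), (f.2 : ℝ))) := by
  unfold smp
  congr 1
  simp only [Prod.fst_zero, Prod.snd_zero, add_zero, Prod.smul_mk, smul_eq_mul]
  refine Prod.ext ?_ ?_ <;> simp only <;> ring

lemma lf_rt_norm (e : Bnd) :
    ‖((((lf e).1 : ℝ), ((lf e).2 : ℝ)) : ℝ × ℝ) - (((rt e).1 : ℝ), ((rt e).2 : ℝ))‖ ≤ 1 := by
  rw [Prod.norm_def]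
  obtain ⟨⟨i, j⟩, d⟩ := e
  cases d <;> simp [lf, rt]

lemma lf_norm {n : ℕ} {e : Bnd} (he : e ∈ bd (bx n)) :
    ‖((((lf e).1 : ℝ), ((lf e).2 : ℝ)) : ℝ × ℝ)‖ ≤ n + 1 := by
  have h5 : (-1 ≤ (lf e).1 ∧ (lf e).1 ≤ n) ∧ -1 ≤ (lf e).2 ∧ (lf e).2 ≤ n := by
    rw [H910.mem_bd] at he
    obtain ⟨⟨i, j⟩, d⟩ := e
    rcases he with he | he <;> rw [mem_bx] at he <;>
      cases d <;> simp only [lf, rt, if_true, if_false, Bool.false_eq_true] at he ⊢ <;> omega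
  have h6 : ∀ x : ℤ, -1 ≤ x → x ≤ n → |(x : ℝ)| ≤ n + 1 := by
    intro x h7 h8
    have h7' : (-1 : ℝ) ≤ x := by exact_mod_cast h7
    have h8' : (x : ℝ) ≤ n := by exact_mod_cast h8
    rw [abs_le]
    constructor <;> linarith
  rw [Prod.norm_def]
  exact max_le (h6 _ h5.1.1 h5.1.2) (h6 _ h5.2.1 h5.2.2)

lemma scale_le {n n' H : ℝ} (h1 : 1 ≤ n') (hnn : n' ≤ n) (hnH : n ≤ n' + H) :
    1 / n' - 1 / n ≤ H / (n * n') := by
  have hn' : 0 < n' := by linarith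
  have hn : 0 < n := by linarith
  rw [div_sub_div _ _ hn'.ne' hn.ne', one_mul, mul_one, mul_comm n' n]
  exact div_le_div_of_nonneg_right (by linarith) (by positivity)

lemma resc_pt {ψ : ℝ × ℝ → ℝ} {C : ℝ} (hC0 : 0 ≤ C)
    (hC : ∀ (a c : ℝ × ℝ) (s s' R : ℝ), ‖a - c‖ ≤ 1 → 0 ≤ s → s ≤ s' → 0 ≤ R →
      s' * ‖a‖ ≤ R → |(ψ (s' • a) - ψ (s' • c)) - (ψ (s • a) - ψ (s • c))| ≤
        C * (1 + R) * (s' - s)) {n n' H : ℕ} (h1 : (1 : ℝ) ≤ n') (hnn : (n' : ℝ) ≤ n)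
    (hnH : (n : ℝ) ≤ n' + H) {e : Bnd} (he : e ∈ bd (bx n)) :
    |dr (smp ψ n 0) e - dr (smp ψ n' 0) e| ≤ C * (H + 3) * H / (n * n') := by
  have hn'0 : (0 : ℝ) < n' := by linarith
  have hn0 : (0 : ℝ) < n := by linarith
  have hH : (0 : ℝ) ≤ H := Nat.cast_nonneg H
  have h7 := hC (((lf e).1 : ℝ), ((lf e).2 : ℝ)) (((rt e).1 : ℝ), ((rt e).2 : ℝ)) (1 / n) (1 / n')
    (H + 2) (lf_rt_norm e) (by positivity) (one_div_le_one_div_of_le hn'0 hnn) (by positivity)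
    (by
      have h2 : 1 / (n' : ℝ) * ‖((((lf e).1 : ℝ), ((lf e).2 : ℝ)) : ℝ × ℝ)‖ ≤ 1 / n' * (n + 1) :=
        mul_le_mul_of_nonneg_left (lf_norm he) (by positivity)
      refine h2.trans ?_
      rw [one_div, inv_mul_le_iff₀ hn'0]
      nlinarith)
  have h8 : dr (smp ψ n 0) e - dr (smp ψ n' 0) e =
      -((ψ ((1 / (n' : ℝ)) • (((lf e).1 : ℝ), ((lf e).2 : ℝ))) -
          ψ ((1 / (n' : ℝ)) • (((rt e).1 : ℝ), ((rt e).2 : ℝ)))) -
        (ψ ((1 / (n : ℝ)) • (((lf e).1 : ℝ), ((lf e).2 : ℝ))) -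
          ψ ((1 / (n : ℝ)) • (((rt e).1 : ℝ), ((rt e).2 : ℝ))))) := by
    simp only [dr, smp_smul]
    ring
  rw [h8, abs_neg]
  refine h7.trans ?_
  have h9 := scale_le h1 hnn hnH
  calc C * (1 + ((H : ℝ) + 2)) * (1 / (n' : ℝ) - 1 / n)
      ≤ C * (1 + ((H : ℝ) + 2)) * (H / (n * n')) :=
        mul_le_mul_of_nonneg_left h9 (by positivity)
    _ = C * (H + 3) * H / (n * n') := by ring

lemma resc_num {C H n n' η : ℝ} (h1 : 1 ≤ n') (hnn : n' ≤ n) (hη : 0 < η)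
    (hA : 4 * (C * (H + 3) * H) ^ 2 / η ≤ n') :
    4 * n ^ 2 * (C * (H + 3) * H / (n * n')) ^ 2 ≤ η := by
  have hn' : 0 < n' := by linarith
  have hn : 0 < n := by linarith
  have e1 : 4 * n ^ 2 * (C * (H + 3) * H / (n * n')) ^ 2 =
      4 * (C * (H + 3) * H) ^ 2 / n' / n' := by
    field_simp
  rw [e1]
  have h2 : 4 * (C * (H + 3) * H) ^ 2 / n' / n' ≤ 4 * (C * (H + 3) * H) ^ 2 / n' :=
    div_le_self (by positivity) h1
  refine h2.trans ?_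
  rw [div_le_iff₀ hn']
  rw [div_le_iff₀ hη] at hA
  linarith

lemma resc_key {ψ : ℝ × ℝ → ℝ} (hs : InSq ψ) {C : ℝ} {n n' : ℕ} (hnn : n' ≤ n)
    (hp : ∀ e ∈ bd (bx n), |dr (smp ψ n 0) e - dr (smp ψ n' 0) e| ≤ C)
    (S : Finset Bnd) :
    ∑ e ∈ S, (dr (smp ψ n 0) e - dr (smp ψ n' 0) e) ^ 2 ≤ 4 * (n : ℝ) ^ 2 * C ^ 2 := by
  have hz : ∀ e, e ∉ bd (bx n) → dr (smp ψ n 0) e - dr (smp ψ n' 0) e = 0 := by
    intro e he
    have e1 := dr_sq_zero hs (has_bx n) he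
    have e2 := dr_sq_zero hs (has_mono (has_bx n) hnn) he
    rw [sq_origin] at e1 e2
    rw [e1, e2, sub_zero]
  calc ∑ e ∈ S, (dr (smp ψ n 0) e - dr (smp ψ n' 0) e) ^ 2
      ≤ ∑ e ∈ S ∪ bd (bx n), (dr (smp ψ n 0) e - dr (smp ψ n' 0) e) ^ 2 :=
        Finset.sum_le_sum_of_subset_of_nonneg Finset.subset_union_left fun _ _ _ => sq_nonneg _
    _ = ∑ e ∈ bd (bx n), (dr (smp ψ n 0) e - dr (smp ψ n' 0) e) ^ 2 := by
        refine (Finset.sum_subset Finset.subset_union_right fun e _ he => ?_).symm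
        rw [hz e he]
        ring
    _ ≤ ∑ e ∈ bd (bx n), C ^ 2 := Finset.sum_le_sum fun e he => by
        rw [← sq_abs]
        exact pow_le_pow_left₀ (abs_nonneg _) (hp e he) 2
    _ = ((bd (bx n)).card : ℝ) * C ^ 2 := by
        rw [Finset.sum_const, nsmul_eq_mul]
    _ ≤ 4 * (n : ℝ) ^ 2 * C ^ 2 :=
        mul_le_mul_of_nonneg_right (card_bd_bx n) (sq_nonneg _)

/-- **change of scale** -/
theorem resc {ψ : ℝ × ℝ → ℝ} (hψ : ContDiff ℝ 2 ψ) (hc : HasCompactSupport ψ) (hs : InSq ψ)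
    (H : ℕ) {η : ℝ} (hη : 0 < η) :
    ∃ n0 : ℕ, ∀ n' ≥ n0, ∀ n : ℕ, n' ≤ n → n ≤ n' + H → ∀ (u : Z2) (S : Finset Bnd),
      ∑ e ∈ S, (dr (sq ψ n u) e - dr (sq ψ n' u) e) ^ 2 ≤ η := by
  obtain ⟨C, hC0, hC⟩ := samp_diff hψ hc
  obtain ⟨n0, hn0⟩ := exists_nat_ge (4 * (C * ((H : ℝ) + 3) * H) ^ 2 / η)
  refine ⟨n0 + 1, fun n' hn' n hnn hnH u S => ?_⟩
  have h1' : (1 : ℝ) ≤ n' := by
    have : 1 ≤ n' := by omega
    exact_mod_cast this
  have hnn' : (n' : ℝ) ≤ n := by exact_mod_cast hnn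
  have hnH' : (n : ℝ) ≤ n' + H := by exact_mod_cast hnH
  have hAη : 4 * (C * ((H : ℝ) + 3) * H) ^ 2 / η ≤ n' := by
    have : (n0 : ℝ) ≤ n' := by
      have : n0 ≤ n' := by omega
      exact_mod_cast this
    exact hn0.trans this
  have key := resc_key hs hnn (fun e he => resc_pt hC0 hC h1' hnn' hnH' he)
    (S.map ⟨sh (-u), sh_inj (-u)⟩)
  rw [← sum_sh (-u) S fun e => dr (smp ψ n 0) e - dr (smp ψ n' 0) e] at key
  refine le_trans (le_of_eq (Finset.sum_congr rfl fun e _ => ?_))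
    (key.trans (resc_num h1' hnn' hη hAη))
  rw [dr_sq, dr_sq]

/-- `Vr B' - 2 √(Vr B') √(Vr (B' - B)) ≤ Vr B` -/
lemma Vr_pert {b : ℝ} (hb : 0 ≤ b) (U : Finset Z2) (B B' : Bnd → ℝ) :
    Vr b U B' - 2 * Real.sqrt (Vr b U B') * Real.sqrt (Vr b U fun e => B' e - B e) ≤
      Vr b U B := by
  have h1 := sqrt_Vr_le hb U B' B
  have hV := Real.sq_sqrt (H910.Vr_nonneg hb U B')
  have hB := Real.sq_sqrt (H910.Vr_nonneg hb U B)
  set x := Real.sqrt (Vr b U B')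
  set y := Real.sqrt (Vr b U B)
  set z := Real.sqrt (Vr b U fun e => B' e - B e)
  have hx : 0 ≤ x := Real.sqrt_nonneg _
  have hy : 0 ≤ y := Real.sqrt_nonneg _
  have hz : 0 ≤ z := Real.sqrt_nonneg _
  rw [← hV, ← hB]
  rcases le_total z x with h2 | h2
  · have h3 : (x - z) ^ 2 ≤ y ^ 2 := pow_le_pow_left₀ (by linarith) (by linarith) 2
    nlinarith
  · nlinarith

/-- **all scales** -/
theorem freeSq_of {b : ℝ} (hb : 0 < b) (hF : FreeSqH b) : FreeSq b := by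
  intro ψ h1 h2 h3 ε hε
  obtain ⟨H, hH, k0, hk⟩ := hF ψ h1 h2 h3 (ε / 2) (by positivity)
  have hD0 : 0 ≤ Dir ψ := Dir_nonneg' ψ
  obtain ⟨n1, hn1⟩ := en_le (h1.of_le (by norm_num)) h2 0 0 one_pos
  -- the size of the perturbation
  set M : ℝ := Real.sqrt (b * (Dir ψ + 1)) with hM
  have hM0 : 0 ≤ M := Real.sqrt_nonneg _
  set θ : ℝ := ε / (4 * (M + 1)) with hθ
  have hθ0 : 0 < θ := by positivity
  obtain ⟨n2, hn2⟩ := resc h1 h2 h3 H (η := θ ^ 2 / b) (by positivity)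
  refine ⟨H * (k0 + n1 + n2 + 1), fun n hn u U hU => ?_⟩
  have hHp : 0 < H := hH
  set k := n / H with hkd
  have hkn : k0 + n1 + n2 + 1 ≤ k := (Nat.le_div_iff_mul_le hHp).2 (by rw [mul_comm]; exact hn)
  have hle : H * k ≤ n := Nat.mul_div_le n H
  have hlt : n ≤ H * k + H := by
    have := Nat.lt_mul_div_succ n hHp
    rw [Nat.mul_succ] at this
    exact this.le
  have hkk : k ≤ H * k := Nat.le_mul_of_pos_left k hHp
  have g1 := hk k (by omega) u U (has_mono hU hle)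
  have g2 := hn2 (H * k) (by omega) n hle hlt u (bd U)
  have g3 : Vr b U (dr (sq ψ (H * k) u)) ≤ M ^ 2 := by
    rw [hM, Real.sq_sqrt (by positivity)]
    refine (H910.Vr_le hb.le U _).trans (mul_le_mul_of_nonneg_left ?_ hb.le)
    have h5 := (hn1 (H * k) (by omega) ((bd U).map ⟨sh (-u), sh_inj (-u)⟩)).1
    rw [← sum_sh] at h5
    have h6 : dr (sq ψ (H * k) u) = fun e => dr (smp ψ (H * k) 0) (sh (-u) e) :=
      funext (dr_sq ψ (H * k) u)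
    rw [h6]
    exact h5
  have g4 : (Vr b U fun e => dr (sq ψ (H * k) u) e - dr (sq ψ n u) e) ≤ θ ^ 2 := by
    refine (H910.Vr_le hb.le U _).trans ?_
    have h5 : ∑ e ∈ bd U, (dr (sq ψ (H * k) u) e - dr (sq ψ n u) e) ^ 2 =
        ∑ e ∈ bd U, (dr (sq ψ n u) e - dr (sq ψ (H * k) u) e) ^ 2 :=
      Finset.sum_congr rfl fun e _ => by ring
    rw [h5]
    calc b * ∑ e ∈ bd U, (dr (sq ψ n u) e - dr (sq ψ (H * k) u) e) ^ 2
        ≤ b * (θ ^ 2 / b) := mul_le_mul_of_nonneg_left g2 hb.le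
      _ = θ ^ 2 := by field_simp
  have g5 := Vr_pert hb.le U (dr (sq ψ n u)) (dr (sq ψ (H * k) u))
  have g6 : Real.sqrt (Vr b U (dr (sq ψ (H * k) u))) ≤ M := by
    rw [← Real.sqrt_sq hM0]
    exact Real.sqrt_le_sqrt g3
  have g7 : Real.sqrt (Vr b U fun e => dr (sq ψ (H * k) u) e - dr (sq ψ n u) e) ≤ θ := by
    rw [← Real.sqrt_sq hθ0.le]
    exact Real.sqrt_le_sqrt g4
  have g8 : 2 * Real.sqrt (Vr b U (dr (sq ψ (H * k) u))) *
      Real.sqrt (Vr b U fun e => dr (sq ψ (H * k) u) e - dr (sq ψ n u) e) ≤ ε / 2 := by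
    calc 2 * Real.sqrt (Vr b U (dr (sq ψ (H * k) u))) *
        Real.sqrt (Vr b U fun e => dr (sq ψ (H * k) u) e - dr (sq ψ n u) e)
        ≤ 2 * M * θ := by
          refine mul_le_mul (by linarith) g7 (Real.sqrt_nonneg _) (by positivity)
      _ ≤ 2 * (M + 1) * θ := by
          have := hθ0.le
          nlinarith
      _ = ε / 2 := by
          rw [hθ]
          field_simp
          ring
  linarith

end Vale.Agent.P159.T1.S.H459
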