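import Vale.Agent.P159.T1.H711.Defect

/-!
P159, stage 2, row S.V: the variance of a finite combination of fixed test functions, each one in
a free square.
-/

open Filter Topology MeasureTheory

namespace Vale.Agent.P159.T1.S.H459

open Vale.Agent.P159 Vale.Agent.P159.T1.D Vale.Agent.P159.T1.D.H469 Vale.Agent.P159.T1.H711

/-- the sample of `ψ` in the square with corner `u` and side `n` -/
noncomputable def sq (ψ : ℝ × ℝ → ℝ) (n : ℕ) (u : Z2) (f : Z2) : ℝ := smp ψ n 0 (f - u)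

/-- `U` contains the square with corner `u` and side `n` -/
def Has (U : Finset Z2) (n : ℕ) (u : Z2) : Prop :=
  ∀ f : Z2, 0 ≤ f.1 → f.1 < n → 0 ≤ f.2 → f.2 < n → f + u ∈ U

/-- the support of `ψ` lies in the open unit square -/
def InSq (ψ : ℝ × ℝ → ℝ) : Prop := ∀ z ∈ tsupport ψ, 0 < z.1 ∧ z.1 < 1 ∧ 0 < z.2 ∧ z.2 < 1

/-- the free square: the limit of the variance is the Dirichlet energy -/
def FreeSq (b : ℝ) : Prop :=
  ∀ ψ : ℝ × ℝ → ℝ, ContDiff ℝ 2 ψ → HasCompactSupport ψ → InSq ψ → ∀ ε : ℝ, 0 < ε →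
    ∃ n0 : ℕ, ∀ n ≥ n0, ∀ (u : Z2) (U : Finset Z2), Has U n u →
      helicity b * Dir ψ - ε ≤ Vr b U (dr (sq ψ n u))

lemma dr_sq (ψ : ℝ × ℝ → ℝ) (n : ℕ) (u : Z2) (e : Bnd) :
    dr (sq ψ n u) e = dr (smp ψ n 0) (sh (-u) e) := by
  have h := dr_sh (-u) (smp ψ n 0) e
  rw [← h]
  rfl

/-- the sample vanishes outside the square -/
lemma sq_zero {ψ : ℝ × ℝ → ℝ} (h : InSq ψ) {n : ℕ} {u f : Z2}
    (hf : ¬ (0 ≤ (f - u).1 ∧ (f - u).1 < n ∧ 0 ≤ (f - u).2 ∧ (f - u).2 < n)) :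
    sq ψ n u f = 0 := by
  by_contra hne
  apply hf
  have hmem : ((((f - u).1 : ℝ) + 0) / n, (((f - u).2 : ℝ) + 0) / n) ∈ tsupport ψ :=
    subset_tsupport ψ (Function.mem_support.2 hne)
  obtain ⟨h1, h2, h3, h4⟩ := h _ hmem
  simp only [add_zero] at h1 h2 h3 h4
  have hn : 0 < n := by
    rcases Nat.eq_zero_or_pos n with h0 | h0
    · subst h0
      simp at h1
    · exact h0
  have hn' : (0 : ℝ) < n := by exact_mod_cast hn
  rw [div_lt_one hn'] at h2 h4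
  have h1' : (0 : ℝ) < (f - u).1 := by
    by_contra h0
    exact absurd h1 (not_lt.2 (div_nonpos_of_nonpos_of_nonneg (not_lt.1 h0) hn'.le))
  have h3' : (0 : ℝ) < (f - u).2 := by
    by_contra h0
    exact absurd h3 (not_lt.2 (div_nonpos_of_nonpos_of_nonneg (not_lt.1 h0) hn'.le))
  refine ⟨?_, ?_, ?_, ?_⟩
  · exact_mod_cast h1'.le
  · exact_mod_cast h2
  · exact_mod_cast h3'.le
  · exact_mod_cast h4

lemma mem_bd_lf {U : Finset Z2} {e : Bnd} (h : lf e ∈ U) : e ∈ bd U := by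
  refine Finset.mem_biUnion.2 ⟨lf e, h, ?_⟩
  obtain ⟨⟨i, j⟩, d⟩ := e
  cases d <;> simp [lf, sides]

lemma mem_bd_rt {U : Finset Z2} {e : Bnd} (h : rt e ∈ U) : e ∈ bd U := by
  refine Finset.mem_biUnion.2 ⟨rt e, h, ?_⟩
  obtain ⟨⟨i, j⟩, d⟩ := e
  cases d <;> simp [rt, sides]

lemma sq_mem {ψ : ℝ × ℝ → ℝ} (h : InSq ψ) {n : ℕ} {u f : Z2} {U : Finset Z2} (hU : Has U n u)
    (hf : sq ψ n u f ≠ 0) : f ∈ U := by
  by_contra hfU
  apply hf
  refine sq_zero h fun ⟨h1, h2, h3, h4⟩ => hfU ?_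
  have := hU (f - u) h1 h2 h3 h4
  rwa [sub_add_cancel] at this

lemma dr_sq_zero {ψ : ℝ × ℝ → ℝ} (h : InSq ψ) {n : ℕ} {u : Z2} {U : Finset Z2} (hU : Has U n u)
    {e : Bnd} (he : e ∉ bd U) : dr (sq ψ n u) e = 0 := by
  have h1 : sq ψ n u (lf e) = 0 := by
    by_contra h0
    exact he (mem_bd_lf (sq_mem h hU h0))
  have h2 : sq ψ n u (rt e) = 0 := by
    by_contra h0
    exact he (mem_bd_rt (sq_mem h hU h0))
  simp [dr, h1, h2]

/-- **the defect of one test function in a free square** -/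
theorem defect_sq {b : ℝ} (hY : 0 ≤ helicity b) (hF : FreeSq b) {ψ : ℝ × ℝ → ℝ}
    (h1 : ContDiff ℝ 2 ψ) (h2 : HasCompactSupport ψ) (h3 : InSq ψ) {δ : ℝ} (hδ : 0 < δ) :
    ∃ ε1 : ℝ, 0 < ε1 ∧ ∀ ε, 0 < ε → ε ≤ ε1 → ∀ (l : ℕ) (C : ℝ), 0 ≤ C →
      ∃ n0 : ℕ, ∀ n ≥ n0, ∀ (u : Z2) (U : Finset Z2), Has U n u →
        ∀ S : Finset Bnd, Df b (helicity b + ε) C l U S (dr (sq ψ n u)) ≤ δ := by
  set D := Dir ψ with hD
  have hD0 : 0 ≤ D := Dir_nonneg' ψ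
  set Y := helicity b with hYd
  refine ⟨δ / (4 * (D + 1)), by positivity, fun ε hε hε1 l C hC => ?_⟩
  set η : ℝ := min 1 (δ / (8 * (Y + C + 1))) with hη
  have hη0 : 0 < η := lt_min one_pos (by positivity)
  have hη1 : η ≤ 1 := min_le_left _ _
  have hη2 : (Y + C) * η ≤ δ / 8 := by
    calc (Y + C) * η ≤ (Y + C + 1) * (δ / (8 * (Y + C + 1))) :=
          mul_le_mul (by linarith) (min_le_right _ _) hη0.le (by linarith)
      _ = δ / 8 := by
          have : Y + C + 1 ≠ 0 := by positivity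
          field_simp
  obtain ⟨n1, hn1⟩ := hF ψ h1 h2 h3 (δ / 8) (by positivity)
  obtain ⟨n2, hn2⟩ := en_le (h1.of_le (by norm_num)) h2 0 l hη0
  refine ⟨n1 + n2, fun n hn u U hU S => ?_⟩
  have hVr := hn1 n (by omega) u U hU
  obtain ⟨g1, g2⟩ := hn2 n (by omega) (S.map ⟨sh (-u), sh_inj (-u)⟩)
  have hdr : dr (sq ψ n u) = fun e => dr (smp ψ n 0) (sh (-u) e) := funext (dr_sq ψ n u)
  rw [← osc_sh, ← hdr] at g2
  rw [← sum_sh] at g1
  have g1' : ∑ e ∈ S, dr (sq ψ n u) e ^ 2 ≤ D + η := by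
    rw [hdr]; exact g1
  unfold Df
  have k1 : (Y + ε) * ∑ e ∈ S, dr (sq ψ n u) e ^ 2 ≤ (Y + ε) * (D + η) :=
    mul_le_mul_of_nonneg_left g1' (by linarith)
  have k2 : C * osc l S (dr (sq ψ n u)) ≤ C * η := mul_le_mul_of_nonneg_left g2 hC
  have k3 : ε * (D + η) ≤ δ / 4 := by
    calc ε * (D + η) ≤ δ / (4 * (D + 1)) * (D + 1) :=
          mul_le_mul hε1 (by linarith) (by linarith) (by positivity)
      _ = δ / 4 := by
          have : D + 1 ≠ 0 := by positivity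
          field_simp
  have k5 : (Y + ε) * (D + η) + C * η = Y * D + ε * (D + η) + (Y + C) * η := by ring
  linarith

lemma Df_smul (b Y C : ℝ) (l : ℕ) (U : Finset Z2) (S : Finset Bnd) (c : ℝ) (B : Bnd → ℝ) :
    Df b Y C l U S (fun e => c * B e) = c ^ 2 * Df b Y C l U S B := by
  rw [Df_eq, Df_eq, Nf_smul, Vr_smul]
  ring

lemma dr_sum {ι : Type*} (I : Finset ι) (g : ι → Z2 → ℝ) (e : Bnd) :
    dr (fun f => ∑ i ∈ I, g i f) e = ∑ i ∈ I, dr (g i) e := by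
  simp only [dr, Finset.sum_sub_distrib]

lemma dr_mul (c : ℝ) (g : Z2 → ℝ) (e : Bnd) : dr (fun f => c * g f) e = c * dr g e := by
  simp only [dr]
  ring

/-- the combination with the coefficients `c` of the test functions `ψ k` in the squares with
corners in `I` -/
noncomputable def combo {p : ℕ} (ψ : Fin p → ℝ × ℝ → ℝ) (n : ℕ) (I : Finset Z2)
    (c : Z2 → Fin p → ℝ) (f : Z2) : ℝ :=
  ∑ u ∈ I, ∑ k, c u k * sq (ψ k) n u f

/-- **finite combinations** : `N` squares, coefficients at most `M` -/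
theorem sq_combo {b : ℝ} (hb : 0 < b) (hY : 0 ≤ helicity b) (hUV : StmtUV) (hF : FreeSq b)
    {p : ℕ} {ψ : Fin p → ℝ × ℝ → ℝ} (h1 : ∀ k, ContDiff ℝ 2 (ψ k))
    (h2 : ∀ k, HasCompactSupport (ψ k)) (h3 : ∀ k, InSq (ψ k)) (N : ℕ) {M δ : ℝ}
    (hM : 0 ≤ M) (hδ : 0 < δ) :
    ∃ n0 : ℕ, ∀ n ≥ n0, ∀ (I : Finset Z2) (c : Z2 → Fin p → ℝ) (U : Finset Z2), I.card ≤ N →
      (∀ u ∈ I, ∀ k, |c u k| ≤ M) → (∀ u ∈ I, Has U n u) → ∀ S : Finset Bnd,
        helicity b * ∑ e ∈ S, dr (combo ψ n I c) e ^ 2 - δ ≤ Vr b U (dr (combo ψ n I c)) := by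
  classical
  set P : ℝ := ((N * p : ℕ) : ℝ) with hP
  have hP0 : 0 ≤ P := Nat.cast_nonneg _
  set δ' : ℝ := δ / (P ^ 2 * M ^ 2 + 1) with hδ'
  have hδ'0 : 0 < δ' := by positivity
  have hδ'1 : P ^ 2 * (M ^ 2 * δ') ≤ δ := by
    have : P ^ 2 * (M ^ 2 * δ') = (P ^ 2 * M ^ 2) * δ / (P ^ 2 * M ^ 2 + 1) := by
      rw [hδ']; ring
    rw [this, div_le_iff₀ (by positivity)]
    nlinarith
  choose ε1 hε1 hd using fun k => defect_sq hY hF (h1 k) (h2 k) (h3 k) hδ'0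
  obtain ⟨ε, hε, hεk⟩ : ∃ ε : ℝ, 0 < ε ∧ ∀ k, ε ≤ ε1 k := by
    rcases p.eq_zero_or_pos with h0 | h0
    · subst h0
      exact ⟨1, one_pos, fun k => k.elim0⟩
    · haveI : Nonempty (Fin p) := ⟨⟨0, h0⟩⟩
      refine ⟨Finset.univ.inf' Finset.univ_nonempty ε1, ?_, fun k =>
        Finset.inf'_le _ (Finset.mem_univ k)⟩
      rw [Finset.lt_inf'_iff]
      exact fun k _ => hε1 k
  obtain ⟨l, C, hC, H⟩ := hUV b ε hb hε
  choose n0 hn0 using fun k => hd k ε hε (hεk k) l C hC.le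
  refine ⟨∑ k, n0 k, fun n hn I c U hI hc hU S => ?_⟩
  set S' : Finset Bnd := S ∪ bd U with hS'
  set J : Finset (Z2 × Fin p) := I ×ˢ Finset.univ with hJ
  set B : Z2 × Fin p → Bnd → ℝ := fun i e => c i.1 i.2 * dr (sq (ψ i.2) n i.1) e with hB
  have hJc : (J.card : ℝ) ≤ P := by
    have : J.card = I.card * p := by
      rw [hJ, Finset.card_product, Finset.card_univ, Fintype.card_fin]
    rw [this, hP]
    exact_mod_cast Nat.mul_le_mul_right p hI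
  have hB0 : ∀ i ∈ J, ∀ e, e ∉ S' → B i e = 0 := by
    intro i hi e he
    have h4 : e ∉ bd U := fun h => he (Finset.mem_union_right _ h)
    have h5 := dr_sq_zero (h3 i.2) (hU i.1 (Finset.mem_product.1 hi).1) h4
    simp only [hB, h5, mul_zero]
  have hdf : ∀ i ∈ J, Df b (helicity b + ε) C l U S' (B i) ≤ M ^ 2 * δ' := by
    intro i hi
    have hi1 := (Finset.mem_product.1 hi).1
    have hnk : n0 i.2 ≤ n :=
      (Finset.single_le_sum (f := n0) (fun _ _ => Nat.zero_le _) (Finset.mem_univ i.2)).trans hn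
    have h5 := hn0 i.2 n hnk i.1 U (hU i.1 hi1) S'
    have h6 : Df b (helicity b + ε) C l U S' (B i) =
        c i.1 i.2 ^ 2 * Df b (helicity b + ε) C l U S' (dr (sq (ψ i.2) n i.1)) :=
      Df_smul _ _ _ _ _ _ _ _
    rw [h6]
    have h7 : c i.1 i.2 ^ 2 ≤ M ^ 2 := by
      rw [← sq_abs]
      exact pow_le_pow_left₀ (abs_nonneg _) (hc i.1 hi1 i.2) 2
    calc c i.1 i.2 ^ 2 * Df b (helicity b + ε) C l U S' (dr (sq (ψ i.2) n i.1))
        ≤ c i.1 i.2 ^ 2 * δ' := mul_le_mul_of_nonneg_left h5 (sq_nonneg _)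
      _ ≤ M ^ 2 * δ' := mul_le_mul_of_nonneg_right h7 hδ'0.le
  have hmain := Vr_sum_ge (fun B hB => H U S' B hB) hb.le J hB0 (δ := fun _ => M ^ 2 * δ') hdf
  have hsum : (fun e => ∑ i ∈ J, B i e) = dr (combo ψ n I c) := by
    funext e
    have h5 : dr (combo ψ n I c) e = ∑ u ∈ I, ∑ k, c u k * dr (sq (ψ k) n u) e := by
      show dr (fun f => ∑ u ∈ I, ∑ k, c u k * sq (ψ k) n u f) e = _
      rw [dr_sum]
      refine Finset.sum_congr rfl fun u _ => ?_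
      rw [dr_sum]
      exact Finset.sum_congr rfl fun k _ => dr_mul _ _ _
    rw [h5, hJ, Finset.sum_product]
  rw [hsum, Finset.sum_const, nsmul_eq_mul] at hmain
  have hN : helicity b * ∑ e ∈ S, dr (combo ψ n I c) e ^ 2 ≤
      Nf (helicity b + ε) C l S' (dr (combo ψ n I c)) := by
    have h5 : ∑ e ∈ S, dr (combo ψ n I c) e ^ 2 ≤ ∑ e ∈ S', dr (combo ψ n I c) e ^ 2 :=
      Finset.sum_le_sum_of_subset_of_nonneg Finset.subset_union_left fun _ _ _ => sq_nonneg _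
    have h6 : 0 ≤ ∑ e ∈ S', dr (combo ψ n I c) e ^ 2 := Finset.sum_nonneg fun _ _ => sq_nonneg _
    have h7 := mul_nonneg hC.le (osc_nonneg l S' (dr (combo ψ n I c)))
    have h8 := mul_le_mul_of_nonneg_left h5 hY
    have h9 := mul_nonneg hε.le h6
    unfold Nf
    nlinarith
  have herr : (J.card : ℝ) * ((J.card : ℝ) * (M ^ 2 * δ')) ≤ δ := by
    have h5 : 0 ≤ M ^ 2 * δ' := by positivity
    calc (J.card : ℝ) * ((J.card : ℝ) * (M ^ 2 * δ'))
        ≤ P * (P * (M ^ 2 * δ')) := by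
          have := Nat.cast_nonneg (α := ℝ) J.card
          gcongr
      _ = P ^ 2 * (M ^ 2 * δ') := by ring
      _ ≤ δ := hδ'1
  linarith

end Vale.Agent.P159.T1.S.H459
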