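import Vale.Agent.P159.T1.D.H469.Tri

/-!
P159, stage 2, row S.V: the variance is additive over pieces without a common bond, hence
superadditive in a larger domain.
-/

open Filter Topology

namespace Vale.Agent.P159.T1.S.H459

open Vale.Agent.P159 Vale.Agent.P159.H353 Vale.Agent.P159.T1.D Vale.Agent.P159.T1.D.H469

variable {b : ℝ} {U V : Finset Z2}

lemma disj_of_bd (h : Disjoint (bd U) (bd V)) : Disjoint U V := by
  rw [Finset.disjoint_left] at h ⊢
  intro f hU hV
  exact h (H910.bd_side f hU) (H910.bd_side f hV)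

lemma bd_union (U V : Finset Z2) : bd (U ∪ V) = bd U ∪ bd V := by
  ext e
  simp only [H910.mem_bd, Finset.mem_union]
  tauto

/-- heights on a disjoint union -/
def glue (h : Disjoint U V) : Ht U × Ht V ≃ Ht (U ∪ V) where
  toFun p := ⟨fun f => p.1.1 f + p.2.1 f, fun f hf => by
    rw [Finset.mem_union, not_or] at hf
    show p.1.1 f + p.2.1 f = 0
    rw [p.1.2 f hf.1, p.2.2 f hf.2, add_zero]⟩
  invFun g := (⟨fun f => if f ∈ U then g.1 f else 0, fun f hf => if_neg hf⟩,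
    ⟨fun f => if f ∈ V then g.1 f else 0, fun f hf => if_neg hf⟩)
  left_inv p := by
    refine Prod.ext (Subtype.ext (funext fun f => ?_)) (Subtype.ext (funext fun f => ?_))
    · show (if f ∈ U then p.1.1 f + p.2.1 f else 0) = p.1.1 f
      split_ifs with hf
      · rw [p.2.2 f (Finset.disjoint_left.1 h hf), add_zero]
      · rw [p.1.2 f hf]
    · show (if f ∈ V then p.1.1 f + p.2.1 f else 0) = p.2.1 f
      split_ifs with hf
      · rw [p.1.2 f (Finset.disjoint_right.1 h hf), zero_add]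
      · rw [p.2.2 f hf]
  right_inv g := by
    refine Subtype.ext (funext fun f => ?_)
    show (if f ∈ U then g.1 f else 0) + (if f ∈ V then g.1 f else 0) = g.1 f
    by_cases hU : f ∈ U
    · rw [if_pos hU, if_neg (Finset.disjoint_left.1 h hU), add_zero]
    · by_cases hV : f ∈ V
      · rw [if_neg hU, if_pos hV, zero_add]
      · rw [if_neg hU, if_neg hV, add_zero]
        refine (g.2 f ?_).symm
        rw [Finset.mem_union, not_or]
        exact ⟨hU, hV⟩

lemma dh_glue (h : Disjoint U V) (p : Ht U × Ht V) (e : Bnd) :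
    dh (glue h p).1 e = dh p.1.1 e + dh p.2.1 e := by
  show (p.1.1 (lf e) + p.2.1 (lf e)) - (p.1.1 (rt e) + p.2.1 (rt e)) = _
  unfold dh
  ring

lemma dh_glue_left (h : Disjoint (bd U) (bd V)) (p : Ht U × Ht V) {e : Bnd} (he : e ∈ bd U) :
    dh (glue (disj_of_bd h) p).1 e = dh p.1.1 e := by
  rw [dh_glue, H910.dh_off p.2.2 (Finset.disjoint_left.1 h he), add_zero]

lemma dh_glue_right (h : Disjoint (bd U) (bd V)) (p : Ht U × Ht V) {e : Bnd} (he : e ∈ bd V) :
    dh (glue (disj_of_bd h) p).1 e = dh p.2.1 e := by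
  rw [dh_glue, H910.dh_off p.1.2 (Finset.disjoint_right.1 h he), zero_add]

lemma wt_glue (h : Disjoint (bd U) (bd V)) (p : Ht U × Ht V) :
    wt b (U ∪ V) 0 (glue (disj_of_bd h) p).1 = wt b U 0 p.1.1 * wt b V 0 p.2.1 := by
  rw [H910.wt_eq, H910.wt_eq, H910.wt_eq, bd_union, Finset.prod_union h]
  congr 1
  · exact Finset.prod_congr rfl fun e he => by rw [dh_glue_left h p he]
  · exact Finset.prod_congr rfl fun e he => by rw [dh_glue_right h p he]

lemma pr_glue (h : Disjoint (bd U) (bd V)) (B : Bnd → ℝ) (p : Ht U × Ht V) :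
    pr (U ∪ V) B 0 (glue (disj_of_bd h) p).1 = pr U B 0 p.1.1 + pr V B 0 p.2.1 := by
  unfold pr
  rw [bd_union, Finset.sum_union h]
  congr 1
  · exact Finset.sum_congr rfl fun e he => by rw [dh_glue_left h p he]
  · exact Finset.sum_congr rfl fun e he => by rw [dh_glue_right h p he]

lemma mean_zero (b : ℝ) (U : Finset Z2) (B : Bnd → ℝ) :
    ∑' h : Ht U, wt b U 0 h.1 * pr U B 0 h.1 = 0 := by
  have h1 := tsum_ng b U fun h => pr U B 0 h
  have h2 : ∑' h : Ht U, wt b U 0 h.1 * pr U B 0 (-h.1) =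
      -∑' h : Ht U, wt b U 0 h.1 * pr U B 0 h.1 := by
    rw [← tsum_neg]
    refine tsum_congr fun h => ?_
    rw [pr_neg_h]
    ring
  rw [h2] at h1
  linarith

/-- **independence of two pieces without a common bond** -/
theorem Vr_union (hb : 0 ≤ b) (h : Disjoint (bd U) (bd V)) (B : Bnd → ℝ) :
    Vr b (U ∪ V) B = Vr b U B + Vr b V B := by
  have hU := Z_pos hb U
  have hV := Z_pos hb V
  set g := glue (disj_of_bd h) with hg
  have a0 : Summable fun x : Ht U => ‖wt b U 0 x.1‖ := (summable_one hb U 0).norm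
  have a1 : Summable fun x : Ht U => ‖wt b U 0 x.1 * pr U B 0 x.1‖ := (summable_lin hb U 0 B).norm
  have a2 : Summable fun x : Ht U => ‖wt b U 0 x.1 * pr U B 0 x.1 ^ 2‖ :=
    (summable_sq hb U 0 B).norm
  have c0 : Summable fun x : Ht V => ‖wt b V 0 x.1‖ := (summable_one hb V 0).norm
  have c1 : Summable fun x : Ht V => ‖wt b V 0 x.1 * pr V B 0 x.1‖ := (summable_lin hb V 0 B).norm
  have c2 : Summable fun x : Ht V => ‖wt b V 0 x.1 * pr V B 0 x.1 ^ 2‖ :=
    (summable_sq hb V 0 B).norm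
  have hZ : Z b (U ∪ V) = Z b U * Z b V := by
    unfold Z
    rw [tsum_mul_tsum_of_summable_norm a0 c0, ← g.tsum_eq fun h : Ht (U ∪ V) => wt b (U ∪ V) 0 h.1]
    exact tsum_congr fun p => wt_glue h p
  have hS : ∑' x : Ht (U ∪ V), wt b (U ∪ V) 0 x.1 * pr (U ∪ V) B 0 x.1 ^ 2 =
      (∑' x : Ht U, wt b U 0 x.1 * pr U B 0 x.1 ^ 2) * Z b V +
        Z b U * ∑' x : Ht V, wt b V 0 x.1 * pr V B 0 x.1 ^ 2 := by
    have s1 := summable_mul_of_summable_norm a2 c0
    have s2 := summable_mul_of_summable_norm a1 c1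
    have s3 := summable_mul_of_summable_norm a0 c2
    have e1 := tsum_mul_tsum_of_summable_norm a2 c0
    have e2 := tsum_mul_tsum_of_summable_norm a1 c1
    have e3 := tsum_mul_tsum_of_summable_norm a0 c2
    rw [mean_zero, zero_mul] at e2
    unfold Z
    rw [e1, e3, ← s1.tsum_add s3,
      ← g.tsum_eq fun x : Ht (U ∪ V) => wt b (U ∪ V) 0 x.1 * pr (U ∪ V) B 0 x.1 ^ 2]
    have e4 : ∑' p : Ht U × Ht V, (wt b U 0 p.1.1 * pr U B 0 p.1.1 ^ 2 * wt b V 0 p.2.1 +
        wt b U 0 p.1.1 * (wt b V 0 p.2.1 * pr V B 0 p.2.1 ^ 2)) +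
        2 * ∑' p : Ht U × Ht V,
          wt b U 0 p.1.1 * pr U B 0 p.1.1 * (wt b V 0 p.2.1 * pr V B 0 p.2.1) =
        ∑' p : Ht U × Ht V, wt b (U ∪ V) 0 (g p).1 * pr (U ∪ V) B 0 (g p).1 ^ 2 := by
      rw [← tsum_mul_left, ← (s1.add s3).tsum_add (s2.mul_left 2)]
      refine tsum_congr fun p => ?_
      rw [hg, wt_glue h, pr_glue h]
      ring
    rw [← e4, ← e2]
    ring
  unfold Vr E
  rw [hS, hZ]
  field_simp

lemma Vr_empty (b : ℝ) (B : Bnd → ℝ) : Vr b ∅ B = 0 := by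
  unfold Vr E
  have : ∀ h : Ht (∅ : Finset Z2), pr ∅ B 0 h.1 = 0 := fun h => by simp [pr, bd]
  simp [this]

lemma bd_biUnion {ι : Type*} [DecidableEq ι] (J : Finset ι) (U : ι → Finset Z2) :
    bd (J.biUnion U) = J.biUnion fun j => bd (U j) := by
  ext e
  simp only [H910.mem_bd, Finset.mem_biUnion]
  constructor
  · rintro (⟨j, h1, h2⟩ | ⟨j, h1, h2⟩)
    · exact ⟨j, h1, Or.inl h2⟩
    · exact ⟨j, h1, Or.inr h2⟩
  · rintro ⟨j, h1, h2 | h2⟩
    · exact Or.inl ⟨j, h1, h2⟩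
    · exact Or.inr ⟨j, h1, h2⟩

/-- **independence of finitely many pieces without a common bond** -/
theorem Vr_biUnion (hb : 0 ≤ b) {ι : Type*} [DecidableEq ι] (J : Finset ι) (U : ι → Finset Z2)
    (hd : ∀ i ∈ J, ∀ j ∈ J, i ≠ j → Disjoint (bd (U i)) (bd (U j))) (B : Bnd → ℝ) :
    Vr b (J.biUnion U) B = ∑ j ∈ J, Vr b (U j) B := by
  induction J using Finset.induction_on with
  | empty => simp [Vr_empty]
  | @insert a s ha ih =>
    rw [Finset.biUnion_insert, Finset.sum_insert ha, Vr_union hb, ih]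
    · exact fun i hi j hj => hd i (Finset.mem_insert_of_mem hi) j (Finset.mem_insert_of_mem hj)
    · rw [bd_biUnion, Finset.disjoint_biUnion_right]
      intro j hj
      exact hd a (Finset.mem_insert_self a s) j (Finset.mem_insert_of_mem hj)
        fun h => ha (h ▸ hj)

lemma Vr_congr {B B' : Bnd → ℝ} (H : ∀ e ∈ bd U, B e = B' e) : Vr b U B = Vr b U B' := by
  unfold Vr
  congr 1
  funext h
  rw [pr_congr H]

/-- **the variance is superadditive** -/
theorem Vr_super (hb : 0 ≤ b) {ι : Type*} (J : Finset ι) (U : ι → Finset Z2)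
    (hV : ∀ j ∈ J, U j ⊆ V)
    (hd : ∀ i ∈ J, ∀ j ∈ J, i ≠ j → Disjoint (bd (U i)) (bd (U j))) (B : ι → Bnd → ℝ)
    (hB : ∀ j ∈ J, ∀ e, e ∉ bd (U j) → B j e = 0) :
    ∑ j ∈ J, Vr b (U j) (B j) ≤ Vr b V fun e => ∑ j ∈ J, B j e := by
  classical
  have h1 := H910.Vr_mono hb (Finset.biUnion_subset.2 hV) fun e => ∑ j ∈ J, B j e
  rw [Vr_biUnion hb J U hd] at h1
  refine le_trans (le_of_eq (Finset.sum_congr rfl fun j hj => ?_)) h1
  refine Vr_congr fun e he => ?_
  rw [Finset.sum_eq_single_of_mem j hj]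
  intro i hi hij
  refine hB i hi e fun h => ?_
  exact Finset.disjoint_left.1 (hd i hi j hj hij) h he

end Vale.Agent.P159.T1.S.H459
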